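import Vale.Agent.P245.H847.Tail

/-!
P245: Gaussian concentration for sums of log-concave functions whose logarithms are Lipschitz
(reverse Jensen inequality), and for finite unions of convex sets.
-/

open MeasureTheory
open scoped ContDiff

namespace Vale.Agent.P245.H715

open Vale.Agent.P245

variable {n : ℕ} {μ : Measure (EuclideanSpace ℝ (Fin n))}

theorem integrable_lip [IsProbabilityMeasure μ] {a : ℝ} (ha : 0 < a)
    (hsub : LinearlySubgaussian μ a) {F : EuclideanSpace ℝ (Fin n) → ℝ}
    (hF : LipschitzWith 1 F) : Integrable F μ := by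
  have h1 := H767.tilt_int ha hsub hF 1
  have h2 := H767.tilt_int ha hsub hF (-1)
  refine (h1.add h2).mono' hF.continuous.aestronglyMeasurable
    (Filter.Eventually.of_forall fun x => ?_)
  simp only [Pi.add_apply, Real.norm_eq_abs]
  have e1 := Real.add_one_le_exp (F x)
  have e2 := Real.add_one_le_exp (-F x)
  have e3 := (Real.exp_pos (F x)).le
  have e4 := (Real.exp_pos (-F x)).le
  have e5 : Real.exp (-1 * F x) = Real.exp (-F x) := by congr 1; ring
  have e6 : Real.exp (-(-1) * F x) = Real.exp (F x) := by congr 1; ring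
  rw [e5, e6]
  rcases abs_cases (F x) with ⟨h, _⟩ | ⟨h, _⟩ <;> rw [h] <;> linarith

theorem mix [IsProbabilityMeasure μ] {a C0 : ℝ} (ha : 0 < a) (hC0 : 0 < C0) (hK : H607.KLS C0)
    (hlc : HasLogConcaveDensity μ) (hsub : LinearlySubgaussian μ a)
    {ι : Type} [Fintype ι] [Nonempty ι] {F : ι → EuclideanSpace ℝ (Fin n) → ℝ}
    (hF : ∀ i, LipschitzWith 1 (F i)) (hc : ∀ i, ConvexOn ℝ Set.univ (F i))
    {t : ℝ} (ht : 0 ≤ t) :
    ∫ x, ∑ i, Real.exp (-t * F i x) ∂μ ≤ Real.exp ((8 * C0 + 26) * a ^ 2 * t ^ 2) *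
      Real.exp (∫ x, Real.log (∑ i, Real.exp (-t * F i x)) ∂μ) := by
  obtain ⟨m, hm⟩ : ∃ m : ι → ℝ, ∀ i, m i = ∫ x, F i x ∂μ := ⟨_, fun _ => rfl⟩
  obtain ⟨K, hKdef⟩ : ∃ K, K = Real.exp ((8 * C0 + 26) * a ^ 2 * t ^ 2) := ⟨_, rfl⟩
  have hintE : ∀ i, Integrable (fun x => Real.exp (-t * F i x)) μ := fun i =>
    H767.tilt_int ha hsub (hF i) t
  have hintF : ∀ i, Integrable (F i) μ := fun i => integrable_lip ha hsub (hF i)
  obtain ⟨S, hS⟩ : ∃ S, S = ∑ i, Real.exp (-t * m i) := ⟨_, rfl⟩
  have hSpos : 0 < S := by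
    rw [hS]; exact Finset.sum_pos (fun i _ => Real.exp_pos _) Finset.univ_nonempty
  -- upper bound of the left side
  have h1 : ∫ x, ∑ i, Real.exp (-t * F i x) ∂μ ≤ K * S := by
    rw [integral_finsetSum _ (fun i _ => hintE i), hS, Finset.mul_sum]
    refine Finset.sum_le_sum fun i _ => ?_
    have h := H607.conc ha hC0 hK hlc hsub (hF i) (hc i) ht
    rw [← hm i, ← hKdef] at h
    have e : ∫ x, Real.exp (-t * F i x) ∂μ =
        (∫ x, Real.exp (-t * (F i x - m i)) ∂μ) * Real.exp (-t * m i) := by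
      rw [← integral_mul_const]
      refine integral_congr_ae (Filter.Eventually.of_forall fun x => ?_)
      simp only
      rw [← Real.exp_add]; congr 1; ring
    rw [e]
    exact mul_le_mul_of_nonneg_right h (Real.exp_pos _).le
  -- lower bound of the logarithm
  have hpos : ∀ x, 0 < ∑ i, Real.exp (-t * F i x) := fun x =>
    Finset.sum_pos (fun i _ => Real.exp_pos _) Finset.univ_nonempty
  have h2 : ∀ x, Real.log S + ∑ i, (Real.exp (-t * m i) / S) * (-t * (F i x - m i)) ≤
      Real.log (∑ i, Real.exp (-t * F i x)) := by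
    intro x
    have hj := convexOn_exp.map_sum_le (t := Finset.univ)
      (w := fun i => Real.exp (-t * m i) / S) (p := fun i => -t * (F i x - m i))
      (fun i _ => div_nonneg (Real.exp_pos _).le hSpos.le)
      (by rw [← Finset.sum_div, ← hS, div_self hSpos.ne']) (fun i _ => Set.mem_univ _)
    simp only [smul_eq_mul] at hj
    have e : ∑ i, Real.exp (-t * F i x) =
        S * ∑ i, Real.exp (-t * m i) / S * Real.exp (-t * (F i x - m i)) := by
      rw [Finset.mul_sum]
      refine Finset.sum_congr rfl fun i _ => ?_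
      rw [← mul_assoc, mul_div_cancel₀ _ hSpos.ne', ← Real.exp_add]
      congr 1; ring
    rw [e]
    have h3 : S * Real.exp (∑ i, Real.exp (-t * m i) / S * (-t * (F i x - m i))) ≤
        S * ∑ i, Real.exp (-t * m i) / S * Real.exp (-t * (F i x - m i)) :=
      mul_le_mul_of_nonneg_left hj hSpos.le
    have h4 := Real.log_le_log (mul_pos hSpos (Real.exp_pos _)) h3
    rwa [Real.log_mul hSpos.ne' (Real.exp_pos _).ne', Real.log_exp] at h4
  have hintL : Integrable (fun x => Real.log (∑ i, Real.exp (-t * F i x))) μ := by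
    obtain ⟨i0⟩ := (inferInstance : Nonempty ι)
    have hb : Integrable (fun x => ∑ i, Real.exp (-t * F i x) + ‖t * F i0 x‖) μ :=
      (integrable_finsetSum _ fun i _ => hintE i).add ((hintF i0).const_mul t).norm
    refine hb.mono' ?_ (Filter.Eventually.of_forall fun x => ?_)
    · refine (Continuous.log ?_ fun x => (hpos x).ne').aestronglyMeasurable
      exact continuous_finsetSum _ fun i _ =>
        Real.continuous_exp.comp (continuous_const.mul (hF i).continuous)
    · rw [Real.norm_eq_abs, Real.norm_eq_abs, abs_le]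
      constructor
      · have h5 : -t * F i0 x ≤ Real.log (∑ i, Real.exp (-t * F i x)) := by
          rw [Real.le_log_iff_exp_le (hpos x)]
          exact Finset.single_le_sum (f := fun i => Real.exp (-t * F i x))
            (fun i _ => (Real.exp_pos _).le) (Finset.mem_univ i0)
        have h6 := neg_abs_le (-(t * F i0 x))
        rw [abs_neg] at h6
        have h7 := (hpos x).le
        linarith
      · have h5 := Real.log_le_sub_one_of_pos (hpos x)
        have h6 := abs_nonneg (t * F i0 x)
        linarith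
  have hg : ∀ i, Integrable
      (fun x => (Real.exp (-t * m i) / S) * (-t * (F i x - m i))) μ := fun i =>
    (((hintF i).sub (integrable_const _)).const_mul _).const_mul _
  have hgs : Integrable (fun x => ∑ i, (Real.exp (-t * m i) / S) * (-t * (F i x - m i))) μ :=
    integrable_finsetSum _ fun i _ => hg i
  have hintR : Integrable (fun x => Real.log S +
      ∑ i, (Real.exp (-t * m i) / S) * (-t * (F i x - m i))) μ :=
    (integrable_const _).add hgs
  have h3 : Real.log S ≤ ∫ x, Real.log (∑ i, Real.exp (-t * F i x)) ∂μ := by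
    have h := integral_mono hintR hintL h2
    have h0 : ∀ i, ∫ x, Real.exp (-t * m i) / S * (-t * (F i x - m i)) ∂μ = 0 := by
      intro i
      rw [integral_const_mul, integral_const_mul, integral_sub (hintF i) (integrable_const _),
        ← hm i]
      simp
    have h00 : ∫ x, ∑ i, Real.exp (-t * m i) / S * (-t * (F i x - m i)) ∂μ = 0 := by
      rw [integral_finsetSum _ (fun i _ => hg i)]
      exact Finset.sum_eq_zero fun i _ => h0 i
    have h000 : ∫ x, (Real.log S +
        ∑ i, (Real.exp (-t * m i) / S) * (-t * (F i x - m i))) ∂μ = Real.log S := by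
      rw [integral_add (integrable_const _) hgs, h00]
      simp
    exact h000 ▸ h
  refine h1.trans ?_
  rw [← hKdef]
  refine mul_le_mul_of_nonneg_left ?_ (by rw [hKdef]; exact (Real.exp_pos _).le)
  rw [← Real.exp_log hSpos]
  exact Real.exp_le_exp.2 h3

/-- finite unions of convex sets -/
theorem union_set [IsProbabilityMeasure μ] {a C0 : ℝ} (ha : 0 < a) (hC0 : 0 < C0)
    (hK : H607.KLS C0) (hlc : HasLogConcaveDensity μ) (hsub : LinearlySubgaussian μ a)
    {N : ℕ} {Ω : Fin N → Set (EuclideanSpace ℝ (Fin n))} (hΩ : ∀ i, Convex ℝ (Ω i))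
    (hne : ∀ i, (Ω i).Nonempty) :
    μ.real (⋃ i, Ω i) ≤ N * Real.exp (-((∫ x, Metric.infDist x (⋃ i, Ω i) ∂μ) ^ 2 /
      (4 * (8 * C0 + 26) * a ^ 2))) := by
  have hd : ∀ A : Set (EuclideanSpace ℝ (Fin n)), Integrable (fun x => Metric.infDist x A) μ :=
    fun A => integrable_lip ha hsub (Metric.lipschitz_infDist_pt A)
  have h1 : μ.real (⋃ i, Ω i) ≤ ∑ i, μ.real (Ω i) := measureReal_iUnion_fintype_le _
  refine h1.trans ?_
  have h2 : ∀ i ∈ Finset.univ, μ.real (Ω i) ≤
      Real.exp (-((∫ x, Metric.infDist x (⋃ i, Ω i) ∂μ) ^ 2 / (4 * (8 * C0 + 26) * a ^ 2))) := by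
    intro i _
    refine (H847.tail_set ha hC0 hK hlc hsub (hΩ i) (hne i)).trans (Real.exp_le_exp.2 ?_)
    have h3 : ∫ x, Metric.infDist x (⋃ i, Ω i) ∂μ ≤ ∫ x, Metric.infDist x (Ω i) ∂μ :=
      integral_mono (hd _) (hd _) fun x =>
        Metric.infDist_le_infDist_of_subset (Set.subset_iUnion _ i) (hne i)
    have h4 : 0 ≤ ∫ x, Metric.infDist x (⋃ i, Ω i) ∂μ :=
      integral_nonneg fun x => Metric.infDist_nonneg
    refine neg_le_neg (div_le_div_of_nonneg_right (pow_le_pow_left₀ h4 h3 2) ?_)
    positivity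
  refine (Finset.sum_le_card_nsmul _ _ _ h2).trans (le_of_eq ?_)
  simp

end Vale.Agent.P245.H715
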