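import Vale.Agent.P245.H715.Mix

/-!
P245: the softmax form of Gaussian concentration (concave orientation, index set `Fin N`).
-/

open MeasureTheory
open scoped ContDiff

namespace Vale.Agent.P245.H715

open Vale.Agent.P245

variable {n : ℕ}

/-- Gaussian concentration bound for every `log ∑ exp (t F_i)`, `F_i` concave and 1-Lipschitz, any
number of terms: `log ∫ e^f ≤ ∫ f + C a² t²`. -/
def SoftmaxConcentration (μ : Measure (EuclideanSpace ℝ (Fin n))) (C a : ℝ) : Prop :=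
  ∀ (N : ℕ) (F : Fin N → EuclideanSpace ℝ (Fin n) → ℝ), 0 < N → (∀ i, LipschitzWith 1 (F i)) →
    (∀ i, ConcaveOn ℝ Set.univ (F i)) → ∀ t : ℝ, 0 ≤ t →
      ∫ x, (∑ i, Real.exp (t * F i x)) ∂μ ≤
        Real.exp ((∫ x, Real.log (∑ i, Real.exp (t * F i x)) ∂μ) + C * a ^ 2 * t ^ 2)

/-- set form for finite unions of convex sets -/
def UnionConcentration (μ : Measure (EuclideanSpace ℝ (Fin n))) (C a : ℝ) : Prop :=
  ∀ (N : ℕ) (Ω : Fin N → Set (EuclideanSpace ℝ (Fin n))), (∀ i, Convex ℝ (Ω i)) →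
    (∀ i, (Ω i).Nonempty) →
    μ.real (⋃ i, Ω i) ≤ N * Real.exp (-((∫ x, Metric.infDist x (⋃ i, Ω i) ∂μ) ^ 2 / (C * a ^ 2)))

variable {μ : Measure (EuclideanSpace ℝ (Fin n))}

theorem softmax [IsProbabilityMeasure μ] {a C0 C : ℝ} (ha : 0 < a) (hC0 : 0 < C0)
    (hK : H607.KLS C0) (hlc : HasLogConcaveDensity μ) (hsub : LinearlySubgaussian μ a)
    (hC : 8 * C0 + 26 ≤ C) : SoftmaxConcentration μ C a := by
  intro N F hN hF hc t ht
  have : Nonempty (Fin N) := ⟨⟨0, hN⟩⟩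
  have h := mix ha hC0 hK hlc hsub (F := fun i x => -F i x)
    (fun i => (hF i).neg) (fun i => (hc i).neg) ht
  simp only [neg_mul_neg] at h
  rw [← Real.exp_add] at h
  refine h.trans (Real.exp_le_exp.2 ?_)
  have : (8 * C0 + 26) * a ^ 2 * t ^ 2 ≤ C * a ^ 2 * t ^ 2 := by gcongr
  linarith

theorem unions [IsProbabilityMeasure μ] {a C0 C : ℝ} (ha : 0 < a) (hC0 : 0 < C0)
    (hK : H607.KLS C0) (hlc : HasLogConcaveDensity μ) (hsub : LinearlySubgaussian μ a)
    (hC : 4 * (8 * C0 + 26) ≤ C) : UnionConcentration μ C a := by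
  intro N Ω hΩ hne
  refine (union_set ha hC0 hK hlc hsub hΩ hne).trans ?_
  refine mul_le_mul_of_nonneg_left (Real.exp_le_exp.2 (neg_le_neg ?_)) (Nat.cast_nonneg _)
  refine div_le_div_of_nonneg_left (sq_nonneg _) (by positivity) ?_
  gcongr

end Vale.Agent.P245.H715
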